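import Vale.Agent.P154.D8.K1.Data
import Vale.Agent.P154.ApxLemma

set_option maxRecDepth 100000

namespace Vale.Agent.P154.D8.K1

open PolyR Cert InT OutT

/-- The quotient polynomial for `j = 1`. -/
noncomputable def S1 (u : ℝ) : ℝ :=
  (205 / 16777216 : ℝ) * u ^ 0 + (-1985 / 8388608 : ℝ) * u ^ 1 + (-29429 / 16777216 : ℝ) * u ^ 2 + (176577 / 16777216 : ℝ) * u ^ 3 + (254993 / 8388608 : ℝ) * u ^ 4 + (-2366537 / 16777216 : ℝ) * u ^ 5 + (-39601 / 524288 : ℝ) * u ^ 6 + (10204519 / 16777216 : ℝ) * u ^ 7 + (-7980157 / 16777216 : ℝ) * u ^ 8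

/-- Certificate polynomial. -/
def lpu1 : List ITm := [⟨(-1453004383478173622279427945613861083984375),0,0⟩,⟨(-33537105110781340044923126697540283203125000),1,0⟩,⟨(-160802791271009482443332672119140625000000000),2,0⟩,⟨676871356568413102626800537109375000000000000,3,0⟩,⟨1371463268678984541486816406250000000000000000,4,0⟩,⟨(-4464708914970961521885473375000000000000000000),5,0⟩,⟨(-1677219511074734858146909471129600000000000000),6,0⟩,⟨9475022229839279004853303986871427399680000000,7,0⟩,⟨(-5198200883753464686972061274526112442897924096),8,0⟩]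

/-- Certificate tree. -/
def tpu1 : OutT := (A (A (A (A (O l) (O l)) (O l)) (A (A (O l) (A (O l) (O l))) (A (A (O l) (A (O l) (O l))) (A (A (A (O l) (O l)) (A (O l) (O l))) (A (A (O l) (A (O l) (O l))) (A (A (O l) (O l)) (A (O l) (O l)))))))) (A (A (A (A (A (A (A (O l) (O l)) (A (O l) (O l))) (A (A (O l) (O l)) (A (O l) (O l)))) (A (A (A (O l) (O l)) (O l)) (A (O l) (O l)))) (A (A (A (O l) (O l)) (A (O l) (O l))) (A (O l) (O l)))) (A (A (A (O l) (O l)) (A (O l) (O l))) (A (A (O l) (O l)) (A (O l) (O l))))) (A (A (A (A (O l) (O l)) (A (O l) (O l))) (A (A (A (O l) (O l)) (A (O l) (O l))) (A (A (O l) (O l)) (A (O l) (O l))))) (A (A (A (A (O l) (A (O l) (O l))) (A (A (O l) (O l)) (A (O l) (O l)))) (A (A (A (O l) (A (O l) (O l))) (A (A (O l) (O l)) (A (O l) (O l)))) (A (A (A (O l) (O l)) (A (O l) (A (O l) (O l)))) (A (A (A (O l) (O l)) (A (O l) (O l))) (A (A (O l) (O l)) (A (O l) (O l))))))) (A (A (A (A (A (A (O l) (O l)) (A (O l) (O l))) (A (A (O l) (O l)) (A (O l) (O l)))) (A (A (A (O l) (O l)) (O l)) (A (O l) (O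 l)))) (A (A (A (O l) (O l)) (A (O l) (O l))) (A (O l) (O l)))) (A (A (A (O l) (O l)) (A (O l) (O l))) (A (O l) (O l))))))))

theorem hpu1 (x : ℝ) (h0 : 0 ≤ x) (h1 : x ≤ 1) : evalIL lpu1 x 0 ≤ 0 :=
  uni_le 8 65536 lpu1 (by norm_num) (by norm_num) (by decide +kernel)
    (chkOut_sound (uniPb 8 65536 lpu1) tpu1 0 32768 0 32768 (by decide +kernel)) x h0 h1

/-- Certificate polynomial. -/
def lpl1 : List ITm := [⟨(-6004918784441315438016317784786224365234375),0,0⟩,⟨28305055792543498682789504528045654296875000,1,0⟩,⟨160802791271009482443332672119140625000000000,2,0⟩,⟨(-676871356568413102626800537109375000000000000),3,0⟩,⟨(-1371463268678984541486816406250000000000000000),4,0⟩,⟨4464708914970961521885473375000000000000000000,5,0⟩,⟨1677219511074734858146909471129600000000000000,6,0⟩,⟨(-9475022229839279004853303986871427399680000000),7,0⟩,⟨5198200883753464686972061274526112442897924096,8,0⟩]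

/-- Certificate tree. -/
def tpl1 : OutT := (A (A (A (A (O l) (O l)) (A (A (O l) (A (O l) (O l))) (A (A (A (O l) (O l)) (A (O l) (O l))) (A (A (O l) (O l)) (O l))))) (A (A (A (A (O l) (O l)) (O l)) (A (O l) (O l))) (A (A (O l) (O l)) (A (O l) (O l))))) (A (A (A (A (O l) (O l)) (A (A (O l) (O l)) (A (O l) (O l)))) (A (A (A (O l) (O l)) (A (A (O l) (O l)) (A (O l) (O l)))) (A (A (A (O l) (O l)) (A (O l) (A (O l) (O l)))) (A (A (A (O l) (O l)) (A (O l) (O l))) (A (A (A (O l) (O l)) (A (O l) (O l))) (A (A (O l) (O l)) (A (O l) (O l)))))))) (A (A (A (A (A (A (A (O l) (O l)) (A (O l) (O l))) (A (A (O l) (O l)) (A (O l) (O l)))) (A (A (A (O l) (O l)) (A (O l) (O l))) (A (A (O l) (O l)) (A (O l) (O l))))) (A (A (A (A (O l) (O l)) (A (O l) (O l))) (A (O l) (O l))) (A (A (O l) (O l)) (A (O l) (O l))))) (A (A (A (A (O l) (O l)) (A (O l) (O l))) (A (O l) (O l))) (A (A (O l) (O l)) (A (O l) (O l))))) (A (A (A (A (O l) (O l)) (A (O l) (O l))) (A (A (O l) (O l)) (A (O l) (O l)))) (A (A (A (O l) (O l)) (A (O l) (O l))) (A (A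 (O l) (O l)) (A (A (O l) (O l)) (A (O l) (A (O l) (A (O l) (O l)))))))))))

theorem hpl1 (x : ℝ) (h0 : 0 ≤ x) (h1 : x ≤ 1) : evalIL lpl1 x 0 ≤ 0 :=
  uni_le 8 65536 lpl1 (by norm_num) (by norm_num) (by decide +kernel)
    (chkOut_sound (uniPb 8 65536 lpl1) tpl1 0 32768 0 32768 (by decide +kernel)) x h0 h1

/-- Certificate polynomial. -/
def lnu1 : List ITm := [⟨(-1453004383478173622279427945613861083984375),0,0⟩,⟨16768552555390670022461563348770141601562500,1,0⟩,⟨(-40200697817752370610833168029785156250000000),2,0⟩,⟨(-84608919571051637828350067138671875000000000),3,0⟩,⟨85716454292436533842926025390625000000000000,4,0⟩,⟨139522153592842547558921042968750000000000000,5,0⟩,⟨(-26206554860542732158545460486400000000000000),6,0⟩,⟨(-74023611170619367225416437397433026560000000),7,0⟩,⟨(-20305472202161971433484614353617626730070016),8,0⟩]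

/-- Certificate tree. -/
def tnu1 : OutT := (A (A (A (A (O l) (A (O l) (O l))) (A (A (O l) (O l)) (A (O l) (O l)))) (A (A (O l) (O l)) (O l))) (A (A (O l) (A (O l) (O l))) (A (A (A (O l) (O l)) (A (O l) (A (O l) (O l)))) (A (A (A (A (O l) (O l)) (A (O l) (A (O l) (O l)))) (A (A (O l) (O l)) (A (O l) (O l)))) (A (A (O l) (O l)) (O l))))))

theorem hnu1 (x : ℝ) (h0 : 0 ≤ x) (h1 : x ≤ 1) : evalIL lnu1 x 0 ≤ 0 :=
  uni_le 8 65536 lnu1 (by norm_num) (by norm_num) (by decide +kernel)
    (chkOut_sound (uniPb 8 65536 lnu1) tnu1 0 32768 0 32768 (by decide +kernel)) x h0 h1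

/-- Certificate polynomial. -/
def lnl1 : List ITm := [⟨(-6004918784441315438016317784786224365234375),0,0⟩,⟨(-14152527896271749341394752264022827148437500),1,0⟩,⟨40200697817752370610833168029785156250000000,2,0⟩,⟨84608919571051637828350067138671875000000000,3,0⟩,⟨(-85716454292436533842926025390625000000000000),4,0⟩,⟨(-139522153592842547558921042968750000000000000),5,0⟩,⟨26206554860542732158545460486400000000000000,6,0⟩,⟨74023611170619367225416437397433026560000000,7,0⟩,⟨20305472202161971433484614353617626730070016,8,0⟩]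

/-- Certificate tree. -/
def tnl1 : OutT := (A (A (O l) (A (O l) (A (O l) (O l)))) (A (A (A (A (O l) (O l)) (A (A (O l) (O l)) (A (O l) (A (O l) (O l))))) (A (A (A (O l) (O l)) (A (O l) (O l))) (A (O l) (O l)))) (A (A (A (O l) (O l)) (O l)) (A (O l) (A (O l) (A (O l) (A (O l) (A (O l) (O l)))))))))

theorem hnl1 (x : ℝ) (h0 : 0 ≤ x) (h1 : x ≤ 1) : evalIL lnl1 x 0 ≤ 0 :=
  uni_le 8 65536 lnl1 (by norm_num) (by norm_num) (by decide +kernel)
    (chkOut_sound (uniPb 8 65536 lnl1) tnl1 0 32768 0 32768 (by decide +kernel)) x h0 h1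

theorem apx1 (u : ℝ) (h0 : -(27404 / 78125 : ℝ) ≤ u) (h1 : u ≤ 2 * (27404 / 78125 : ℝ)) :
    |((1 + u)⁻¹) ^ 1 - evalZ Ax.p1 (3 * u) / Ax.D1| ≤ Ax.e1 * |u| ^ Ax.m1 := by
  have hu : 0 < 1 + u := by norm_num at h0 ⊢; linarith
  refine apx_of_S 1 2 _ (S1 u) _ u hu ?_ ?_ ?_
  · simp only [Ax, evalZ_cons, evalZ_nil, S1]
    push_cast
    ring
  · rcases le_total 0 u with hs | hs
    · have hx := hpu1 (u / (2 * (27404 / 78125 : ℝ))) (by positivity) (by rw [div_le_one (by norm_num)]; exact h1)
      have e : evalIL lpu1 (u / (2 * (27404 / 78125 : ℝ))) 0 = 186264514923095703125000000000000000000000000000 * (S1 u - Ax.e1 * (1 + u) ^ 1) := by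
        simp only [lpu1, evalIL, List.map_cons, List.map_nil, List.sum_cons, List.sum_nil, S1, Ax]
        push_cast
        ring
      rw [e] at hx
      have := cmul_nonpos (by norm_num) hx
      simp only [Ax] at this ⊢
      linarith
    · have hx := hnu1 (-u / (27404 / 78125 : ℝ)) (by apply div_nonneg <;> [linarith; norm_num]) (by rw [div_le_one (by norm_num)]; linarith)
      have e : evalIL lnu1 (-u / (27404 / 78125 : ℝ)) 0 = 186264514923095703125000000000000000000000000000 * (S1 u - Ax.e1 * (1 + u) ^ 1) := by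
        simp only [lnu1, evalIL, List.map_cons, List.map_nil, List.sum_cons, List.sum_nil, S1, Ax]
        push_cast
        ring
      rw [e] at hx
      have := cmul_nonpos (by norm_num) hx
      simp only [Ax] at this ⊢
      linarith
  · rcases le_total 0 u with hs | hs
    · have hx := hpl1 (u / (2 * (27404 / 78125 : ℝ))) (by positivity) (by rw [div_le_one (by norm_num)]; exact h1)
      have e : evalIL lpl1 (u / (2 * (27404 / 78125 : ℝ))) 0 = 186264514923095703125000000000000000000000000000 * (-S1 u - Ax.e1 * (1 + u) ^ 1) := by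
        simp only [lpl1, evalIL, List.map_cons, List.map_nil, List.sum_cons, List.sum_nil, S1, Ax]
        push_cast
        ring
      rw [e] at hx
      have := cmul_nonpos (by norm_num) hx
      simp only [Ax] at this ⊢
      linarith
    · have hx := hnl1 (-u / (27404 / 78125 : ℝ)) (by apply div_nonneg <;> [linarith; norm_num]) (by rw [div_le_one (by norm_num)]; linarith)
      have e : evalIL lnl1 (-u / (27404 / 78125 : ℝ)) 0 = 186264514923095703125000000000000000000000000000 * (-S1 u - Ax.e1 * (1 + u) ^ 1) := by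
        simp only [lnl1, evalIL, List.map_cons, List.map_nil, List.sum_cons, List.sum_nil, S1, Ax]
        push_cast
        ring
      rw [e] at hx
      have := cmul_nonpos (by norm_num) hx
      simp only [Ax] at this ⊢
      linarith

/-- The quotient polynomial for `j = 2`. -/
noncomputable def S2 (u : ℝ) : ℝ :=
  (1045 / 8388608 : ℝ) * u ^ 0 + (-42367 / 16777216 : ℝ) * u ^ 1 + (-346047 / 16777216 : ℝ) * u ^ 2 + (1672019 / 16777216 : ℝ) * u ^ 3 + (7071993 / 16777216 : ℝ) * u ^ 4 + (-5235733 / 4194304 : ℝ) * u ^ 5 + (-35997895 / 16777216 : ℝ) * u ^ 6 + (98271523 / 16777216 : ℝ) * u ^ 7 + (12952359 / 16777216 : ℝ) * u ^ 8 + (-78498527 / 16777216 : ℝ) * u ^ 9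

/-- Certificate polynomial. -/
def lpu2 : List ITm := [⟨(-10633095966217087635641291853971779346466064453125),0,0⟩,⟨(-241506593101625810504629043862223625183105468750000),1,0⟩,⟨(-1194141281442899753528763540089130401611328125000000),2,0⟩,⟨4005836578157692916691303253173828125000000000000000,3,0⟩,⟨11886329521612968204645538330078125000000000000000000,4,0⟩,⟨(-24694335860275644625317494687500000000000000000000000),5,0⟩,⟨(-29777682703137449662143722359160000000000000000000000),6,0⟩,⟨57028953605331740343962964739679742361600000000000000,7,0⟩,⟨5273154713661346365075019874112420597957918720000000,8,0⟩,⟨(-22420075564704238694971124517357900190534983256899584),9,0⟩]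

/-- Certificate tree. -/
def tpu2 : OutT := (A (A (A (A (O l) (O l)) (O l)) (A (A (O l) (A (O l) (O l))) (A (A (O l) (A (O l) (O l))) (A (A (O l) (A (O l) (O l))) (A (A (O l) (A (O l) (O l))) (A (A (O l) (O l)) (A (O l) (O l)))))))) (A (A (A (A (A (A (A (O l) (O l)) (A (O l) (O l))) (A (A (O l) (O l)) (O l))) (A (A (O l) (O l)) (A (O l) (O l)))) (A (A (A (O l) (O l)) (O l)) (A (O l) (O l)))) (A (A (A (O l) (O l)) (A (O l) (O l))) (A (A (O l) (O l)) (A (O l) (O l))))) (A (A (A (A (O l) (O l)) (A (O l) (O l))) (A (A (O l) (O l)) (A (A (O l) (O l)) (A (O l) (O l))))) (A (A (A (A (O l) (O l)) (A (A (O l) (O l)) (A (O l) (O l)))) (A (A (A (O l) (O l)) (A (O l) (A (O l) (O l)))) (A (A (A (O l) (O l)) (A (O l) (O l))) (A (A (A (O l) (O l)) (A (O l) (O l))) (A (A (O l) (O l)) (A (O l) (O l))))))) (A (A (A (A (A (A (O l) (O l)) (A (O l) (O l))) (A (A (O l) (O l)) (O l))) (A (A (O l) (O l)) (A (O l) (O l)))) (A (A (A (O l) (O l)) (O l)) (A (O l) (O l)))) (A (A (A (O l) (O l)) (O l)) (A (O l) (O l))))))))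

theorem hpu2 (x : ℝ) (h0 : 0 ≤ x) (h1 : x ≤ 1) : evalIL lpu2 x 0 ≤ 0 :=
  uni_le 9 65536 lpu2 (by norm_num) (by norm_num) (by decide +kernel)
    (chkOut_sound (uniPb 9 65536 lpu2) tpu2 0 32768 0 32768 (by decide +kernel)) x h0 h1

/-- Certificate polynomial. -/
def lpl2 : List ITm := [⟨(-39637672484549302254208669182844460010528564453125),0,0⟩,⟨170972442004035940499306889250874519348144531250000,1,0⟩,⟨1169399932621416837719152681529521942138671875000000,2,0⟩,⟨(-4005836578157692916691303253173828125000000000000000),3,0⟩,⟨(-11886329521612968204645538330078125000000000000000000),4,0⟩,⟨24694335860275644625317494687500000000000000000000000,5,0⟩,⟨29777682703137449662143722359160000000000000000000000,6,0⟩,⟨(-57028953605331740343962964739679742361600000000000000),7,0⟩,⟨(-5273154713661346365075019874112420597957918720000000),8,0⟩,⟨22420075564704238694971124517357900190534983256899584,9,0⟩]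

/-- Certificate tree. -/
def tpl2 : OutT := (A (A (A (A (O l) (O l)) (A (A (O l) (A (O l) (O l))) (A (A (A (O l) (O l)) (A (O l) (O l))) (A (O l) (O l))))) (A (A (A (A (O l) (O l)) (O l)) (A (O l) (O l))) (A (A (O l) (O l)) (A (O l) (O l))))) (A (A (A (A (O l) (O l)) (A (O l) (A (O l) (O l)))) (A (A (A (O l) (O l)) (A (O l) (A (O l) (O l)))) (A (A (A (O l) (O l)) (A (O l) (O l))) (A (A (A (O l) (O l)) (A (O l) (O l))) (A (A (O l) (O l)) (A (A (O l) (O l)) (A (O l) (O l)))))))) (A (A (A (A (A (A (A (O l) (O l)) (A (O l) (O l))) (A (A (O l) (O l)) (A (O l) (O l)))) (A (A (A (O l) (O l)) (A (O l) (O l))) (A (A (O l) (O l)) (A (O l) (O l))))) (A (A (A (O l) (O l)) (A (O l) (O l))) (A (A (O l) (O l)) (A (O l) (O l))))) (A (A (A (O l) (O l)) (A (O l) (O l))) (A (A (O l) (O l)) (A (O l) (O l))))) (A (A (A (A (O l) (O l)) (A (O l) (O l))) (A (O l) (O l))) (A (A (A (O l) (O l)) (A (O l) (O l))) (A (A (O l) (O l)) (A (A (O l) (O l)) (A (O l) (A (O l) (A (O l) (O l)))))))))))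

theorem hpl2 (x : ℝ) (h0 : 0 ≤ x) (h1 : x ≤ 1) : evalIL lpl2 x 0 ≤ 0 :=
  uni_le 9 65536 lpl2 (by norm_num) (by norm_num) (by decide +kernel)
    (chkOut_sound (uniPb 9 65536 lpl2) tpl2 0 32768 0 32768 (by decide +kernel)) x h0 h1

/-- Certificate polynomial. -/
def lnu2 : List ITm := [⟨(-10633095966217087635641291853971779346466064453125),0,0⟩,⟨120753296550812905252314521931111812591552734375000,1,0⟩,⟨(-298535320360724938382190885022282600402832031250000),2,0⟩,⟨(-500729572269711614586412906646728515625000000000000),3,0⟩,⟨742895595100810512790346145629882812500000000000000,4,0⟩,⟨771697995633613894541171708984375000000000000000000,5,0⟩,⟨(-465276292236522650970995661861875000000000000000000),6,0⟩,⟨(-445538700041654221437210662028747987200000000000000),7,0⟩,⟨20598260600239634238574296383251642960773120000000,8,0⟩,⟨43789210087312966201115477572964648809638639173632,9,0⟩]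

/-- Certificate tree. -/
def tnu2 : OutT := (A (A (A (A (O l) (O l)) (A (A (O l) (O l)) (A (O l) (O l)))) (A (A (O l) (O l)) (O l))) (A (A (O l) (A (O l) (O l))) (A (A (A (O l) (O l)) (A (O l) (A (O l) (A (O l) (O l))))) (A (A (A (A (O l) (O l)) (A (A (O l) (O l)) (A (O l) (O l)))) (A (A (A (O l) (O l)) (O l)) (A (O l) (O l)))) (A (A (O l) (O l)) (O l))))))

theorem hnu2 (x : ℝ) (h0 : 0 ≤ x) (h1 : x ≤ 1) : evalIL lnu2 x 0 ≤ 0 :=
  uni_le 9 65536 lnu2 (by norm_num) (by norm_num) (by decide +kernel)
    (chkOut_sound (uniPb 9 65536 lnu2) tnu2 0 32768 0 32768 (by decide +kernel)) x h0 h1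

/-- Certificate polynomial. -/
def lnl2 : List ITm := [⟨(-39637672484549302254208669182844460010528564453125),0,0⟩,⟨(-85486221002017970249653444625437259674072265625000),1,0⟩,⟨292349983155354209429788170382380485534667968750000,2,0⟩,⟨500729572269711614586412906646728515625000000000000,3,0⟩,⟨(-742895595100810512790346145629882812500000000000000),4,0⟩,⟨(-771697995633613894541171708984375000000000000000000),5,0⟩,⟨465276292236522650970995661861875000000000000000000,6,0⟩,⟨445538700041654221437210662028747987200000000000000,7,0⟩,⟨(-20598260600239634238574296383251642960773120000000),8,0⟩,⟨(-43789210087312966201115477572964648809638639173632),9,0⟩]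

/-- Certificate tree. -/
def tnl2 : OutT := (A (A (O l) (A (O l) (A (O l) (O l)))) (A (A (A (A (O l) (O l)) (A (A (O l) (O l)) (A (A (O l) (O l)) (A (O l) (O l))))) (A (A (A (A (O l) (O l)) (O l)) (A (O l) (O l))) (A (O l) (O l)))) (A (A (A (O l) (O l)) (A (O l) (O l))) (A (A (O l) (O l)) (A (O l) (A (O l) (A (O l) (A (O l) (O l)))))))))

theorem hnl2 (x : ℝ) (h0 : 0 ≤ x) (h1 : x ≤ 1) : evalIL lnl2 x 0 ≤ 0 :=
  uni_le 9 65536 lnl2 (by norm_num) (by norm_num) (by decide +kernel)
    (chkOut_sound (uniPb 9 65536 lnl2) tnl2 0 32768 0 32768 (by decide +kernel)) x h0 h1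

theorem apx2 (u : ℝ) (h0 : -(27404 / 78125 : ℝ) ≤ u) (h1 : u ≤ 2 * (27404 / 78125 : ℝ)) :
    |((1 + u)⁻¹) ^ 2 - evalZ Ax.p2 (3 * u) / Ax.D2| ≤ Ax.e2 * |u| ^ Ax.m2 := by
  have hu : 0 < 1 + u := by norm_num at h0 ⊢; linarith
  refine apx_of_S 2 2 _ (S2 u) _ u hu ?_ ?_ ?_
  · simp only [Ax, evalZ_cons, evalZ_nil, S2]
    push_cast
    ring
  · rcases le_total 0 u with hs | hs
    · have hx := hpu2 (u / (2 * (27404 / 78125 : ℝ))) (by positivity) (by rw [div_le_one (by norm_num)]; exact h1)
      have e : evalIL lpu2 (u / (2 * (27404 / 78125 : ℝ))) 0 = 116415321826934814453125000000000000000000000000000000 * (S2 u - Ax.e2 * (1 + u) ^ 2) := by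
        simp only [lpu2, evalIL, List.map_cons, List.map_nil, List.sum_cons, List.sum_nil, S2, Ax]
        push_cast
        ring
      rw [e] at hx
      have := cmul_nonpos (by norm_num) hx
      simp only [Ax] at this ⊢
      linarith
    · have hx := hnu2 (-u / (27404 / 78125 : ℝ)) (by apply div_nonneg <;> [linarith; norm_num]) (by rw [div_le_one (by norm_num)]; linarith)
      have e : evalIL lnu2 (-u / (27404 / 78125 : ℝ)) 0 = 116415321826934814453125000000000000000000000000000000 * (S2 u - Ax.e2 * (1 + u) ^ 2) := by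
        simp only [lnu2, evalIL, List.map_cons, List.map_nil, List.sum_cons, List.sum_nil, S2, Ax]
        push_cast
        ring
      rw [e] at hx
      have := cmul_nonpos (by norm_num) hx
      simp only [Ax] at this ⊢
      linarith
  · rcases le_total 0 u with hs | hs
    · have hx := hpl2 (u / (2 * (27404 / 78125 : ℝ))) (by positivity) (by rw [div_le_one (by norm_num)]; exact h1)
      have e : evalIL lpl2 (u / (2 * (27404 / 78125 : ℝ))) 0 = 116415321826934814453125000000000000000000000000000000 * (-S2 u - Ax.e2 * (1 + u) ^ 2) := by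
        simp only [lpl2, evalIL, List.map_cons, List.map_nil, List.sum_cons, List.sum_nil, S2, Ax]
        push_cast
        ring
      rw [e] at hx
      have := cmul_nonpos (by norm_num) hx
      simp only [Ax] at this ⊢
      linarith
    · have hx := hnl2 (-u / (27404 / 78125 : ℝ)) (by apply div_nonneg <;> [linarith; norm_num]) (by rw [div_le_one (by norm_num)]; linarith)
      have e : evalIL lnl2 (-u / (27404 / 78125 : ℝ)) 0 = 116415321826934814453125000000000000000000000000000000 * (-S2 u - Ax.e2 * (1 + u) ^ 2) := by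
        simp only [lnl2, evalIL, List.map_cons, List.map_nil, List.sum_cons, List.sum_nil, S2, Ax]
        push_cast
        ring
      rw [e] at hx
      have := cmul_nonpos (by norm_num) hx
      simp only [Ax] at this ⊢
      linarith

/-- The quotient polynomial for `j = 3`. -/
noncomputable def S3 (u : ℝ) : ℝ :=
  (36419 / 8388608 : ℝ) * u ^ 0 + (468917 / 16777216 : ℝ) * u ^ 1 + (-6472469 / 16777216 : ℝ) * u ^ 2 + (-11556337 / 8388608 : ℝ) * u ^ 3 + (45075241 / 8388608 : ℝ) * u ^ 4 + (101638213 / 8388608 : ℝ) * u ^ 5 + (-209073579 / 8388608 : ℝ) * u ^ 6 + (-449587577 / 16777216 : ℝ) * u ^ 7 + (442797271 / 16777216 : ℝ) * u ^ 8 + (12316659 / 524288 : ℝ) * u ^ 9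

/-- Certificate polynomial. -/
def lpu3 : List ITm := [⟨(-6287830499329682965026222518645226955413818359375),0,0⟩,⟨291502422344880329774241545237600803375244140625000,1,0⟩,⟨(-5721807795612577365318429656326770782470703125000000),2,0⟩,⟨(-13889180080891128924791701138019561767578125000000000),3,0⟩,⟨37880351959632825608688735961914062500000000000000000,4,0⟩,⟨59922081780627330670326502460937500000000000000000000,5,0⟩,⟨(-86473482644906613703339165331916000000000000000000000),6,0⟩,⟨(-65226192409439180622130624491921864089600000000000000),7,0⟩,⟨45067823490107682095612631462109400071059537920000000,8,0⟩,⟨28142227482530421887846568690578037226390698143514624,9,0⟩]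

/-- Certificate tree. -/
def tpu3 : OutT := (A (A (A (A (A (A (O l) (O l)) (A (O l) (O l))) (A (O l) (O l))) (A (O l) (O l))) (A (A (O l) (O l)) (A (O l) (O l)))) (A (A (A (A (O l) (O l)) (A (O l) (A (O l) (O l)))) (A (A (A (O l) (A (O l) (O l))) (A (A (O l) (A (O l) (O l))) (A (A (O l) (O l)) (A (O l) (O l))))) (A (A (A (A (O l) (O l)) (A (O l) (O l))) (A (A (O l) (O l)) (O l))) (A (A (O l) (O l)) (A (O l) (O l)))))) (A (A (A (A (O l) (O l)) (A (O l) (O l))) (A (A (O l) (O l)) (O l))) (A (A (O l) (O l)) (A (A (O l) (O l)) (A (O l) (A (O l) (A (O l) (A (O l) (O l))))))))))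

theorem hpu3 (x : ℝ) (h0 : 0 ≤ x) (h1 : x ≤ 1) : evalIL lpu3 x 0 ≤ 0 :=
  uni_le 9 65536 lpu3 (by norm_num) (by norm_num) (by decide +kernel)
    (chkOut_sound (uniPb 9 65536 lpu3) tpu3 0 32768 0 32768 (by decide +kernel)) x h0 h1

/-- Certificate polynomial. -/
def lpl3 : List ITm := [⟨(-258995407585727033250577733269892632961273193359375),0,0⟩,⟨(-849824740922766608264282695017755031585693359375000),1,0⟩,⟨5330121016263882438579457812011241912841796875000000,2,0⟩,⟨13797585119813610966200940310955047607421875000000000,3,0⟩,⟨(-37880351959632825608688735961914062500000000000000000),4,0⟩,⟨(-59922081780627330670326502460937500000000000000000000),5,0⟩,⟨86473482644906613703339165331916000000000000000000000,6,0⟩,⟨65226192409439180622130624491921864089600000000000000,7,0⟩,⟨(-45067823490107682095612631462109400071059537920000000),8,0⟩,⟨(-28142227482530421887846568690578037226390698143514624),9,0⟩]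

/-- Certificate tree. -/
def tpl3 : OutT := (A (A (A (O l) (A (O l) (O l))) (A (A (A (O l) (O l)) (A (A (O l) (O l)) (A (A (O l) (O l)) (A (O l) (O l))))) (A (A (A (A (O l) (O l)) (O l)) (A (O l) (O l))) (A (O l) (O l))))) (A (A (A (A (O l) (O l)) (A (O l) (O l))) (A (A (O l) (O l)) (A (O l) (O l)))) (A (A (A (O l) (O l)) (A (A (O l) (O l)) (A (O l) (A (O l) (O l))))) (A (A (A (A (O l) (O l)) (A (A (O l) (O l)) (A (O l) (O l)))) (A (A (A (O l) (A (O l) (O l))) (A (A (O l) (O l)) (A (O l) (O l)))) (A (A (O l) (O l)) (A (O l) (O l))))) (A (A (A (O l) (O l)) (A (O l) (O l))) (A (O l) (O l)))))))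

theorem hpl3 (x : ℝ) (h0 : 0 ≤ x) (h1 : x ≤ 1) : evalIL lpl3 x 0 ≤ 0 :=
  uni_le 9 65536 lpl3 (by norm_num) (by norm_num) (by decide +kernel)
    (chkOut_sound (uniPb 9 65536 lpl3) tpl3 0 32768 0 32768 (by decide +kernel)) x h0 h1

/-- Certificate polynomial. -/
def lnu3 : List ITm := [⟨(-6287830499329682965026222518645226955413818359375),0,0⟩,⟨(-145751211172440164887120772618800401687622070312500),1,0⟩,⟨(-1430451948903144341329607414081692695617675781250000),2,0⟩,⟨1736147510111391115598962642252445220947265625000000,3,0⟩,⟨2367521997477051600543045997619628906250000000000000,4,0⟩,⟨(-1872565055644604083447703201904296875000000000000000),5,0⟩,⟨(-1351148166326665839114674458311187500000000000000000),6,0⟩,⟨509579628198743598610395503843139563200000000000000,7,0⟩,⟨176046185508233133185986841648864844027576320000000,8,0⟩,⟨(-54965288051817230249700329473785228957794332311552),9,0⟩]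

/-- Certificate tree. -/
def tnu3 : OutT := (A (A (A (A (O l) (O l)) (O l)) (A (O l) (O l))) (A (A (O l) (A (O l) (O l))) (A (A (A (O l) (O l)) (A (A (O l) (O l)) (A (A (O l) (O l)) (A (O l) (O l))))) (A (A (A (A (O l) (O l)) (A (O l) (O l))) (A (O l) (O l))) (A (A (O l) (O l)) (O l))))))

theorem hnu3 (x : ℝ) (h0 : 0 ≤ x) (h1 : x ≤ 1) : evalIL lnu3 x 0 ≤ 0 :=
  uni_le 9 65536 lnu3 (by norm_num) (by norm_num) (by decide +kernel)
    (chkOut_sound (uniPb 9 65536 lnu3) tnu3 0 32768 0 32768 (by decide +kernel)) x h0 h1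

/-- Certificate polynomial. -/
def lnl3 : List ITm := [⟨(-258995407585727033250577733269892632961273193359375),0,0⟩,⟨424912370461383304132141347508877515792846679687500,1,0⟩,⟨1332530254065970609644864453002810478210449218750000,2,0⟩,⟨(-1724698139976701370775117538869380950927734375000000),3,0⟩,⟨(-2367521997477051600543045997619628906250000000000000),4,0⟩,⟨1872565055644604083447703201904296875000000000000000,5,0⟩,⟨1351148166326665839114674458311187500000000000000000,6,0⟩,⟨(-509579628198743598610395503843139563200000000000000),7,0⟩,⟨(-176046185508233133185986841648864844027576320000000),8,0⟩,⟨54965288051817230249700329473785228957794332311552,9,0⟩]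

/-- Certificate tree. -/
def tnl3 : OutT := (A (A (O l) (A (O l) (A (O l) (A (O l) (A (O l) (O l)))))) (A (A (A (A (A (O l) (O l)) (A (O l) (O l))) (A (O l) (O l))) (A (A (O l) (O l)) (O l))) (A (A (O l) (O l)) (A (O l) (A (O l) (A (O l) (A (O l) (A (O l) (O l)))))))))

theorem hnl3 (x : ℝ) (h0 : 0 ≤ x) (h1 : x ≤ 1) : evalIL lnl3 x 0 ≤ 0 :=
  uni_le 9 65536 lnl3 (by norm_num) (by norm_num) (by decide +kernel)
    (chkOut_sound (uniPb 9 65536 lnl3) tnl3 0 32768 0 32768 (by decide +kernel)) x h0 h1

theorem apx3 (u : ℝ) (h0 : -(27404 / 78125 : ℝ) ≤ u) (h1 : u ≤ 2 * (27404 / 78125 : ℝ)) :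
    |((1 + u)⁻¹) ^ 3 - evalZ Ax.p3 (3 * u) / Ax.D3| ≤ Ax.e3 * |u| ^ Ax.m3 := by
  have hu : 0 < 1 + u := by norm_num at h0 ⊢; linarith
  refine apx_of_S 3 2 _ (S3 u) _ u hu ?_ ?_ ?_
  · simp only [Ax, evalZ_cons, evalZ_nil, S3]
    push_cast
    ring
  · rcases le_total 0 u with hs | hs
    · have hx := hpu3 (u / (2 * (27404 / 78125 : ℝ))) (by positivity) (by rw [div_le_one (by norm_num)]; exact h1)
      have e : evalIL lpu3 (u / (2 * (27404 / 78125 : ℝ))) 0 = 29103830456733703613281250000000000000000000000000000 * (S3 u - Ax.e3 * (1 + u) ^ 3) := by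
        simp only [lpu3, evalIL, List.map_cons, List.map_nil, List.sum_cons, List.sum_nil, S3, Ax]
        push_cast
        ring
      rw [e] at hx
      have := cmul_nonpos (by norm_num) hx
      simp only [Ax] at this ⊢
      linarith
    · have hx := hnu3 (-u / (27404 / 78125 : ℝ)) (by apply div_nonneg <;> [linarith; norm_num]) (by rw [div_le_one (by norm_num)]; linarith)
      have e : evalIL lnu3 (-u / (27404 / 78125 : ℝ)) 0 = 29103830456733703613281250000000000000000000000000000 * (S3 u - Ax.e3 * (1 + u) ^ 3) := by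
        simp only [lnu3, evalIL, List.map_cons, List.map_nil, List.sum_cons, List.sum_nil, S3, Ax]
        push_cast
        ring
      rw [e] at hx
      have := cmul_nonpos (by norm_num) hx
      simp only [Ax] at this ⊢
      linarith
  · rcases le_total 0 u with hs | hs
    · have hx := hpl3 (u / (2 * (27404 / 78125 : ℝ))) (by positivity) (by rw [div_le_one (by norm_num)]; exact h1)
      have e : evalIL lpl3 (u / (2 * (27404 / 78125 : ℝ))) 0 = 29103830456733703613281250000000000000000000000000000 * (-S3 u - Ax.e3 * (1 + u) ^ 3) := by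
        simp only [lpl3, evalIL, List.map_cons, List.map_nil, List.sum_cons, List.sum_nil, S3, Ax]
        push_cast
        ring
      rw [e] at hx
      have := cmul_nonpos (by norm_num) hx
      simp only [Ax] at this ⊢
      linarith
    · have hx := hnl3 (-u / (27404 / 78125 : ℝ)) (by apply div_nonneg <;> [linarith; norm_num]) (by rw [div_le_one (by norm_num)]; linarith)
      have e : evalIL lnl3 (-u / (27404 / 78125 : ℝ)) 0 = 29103830456733703613281250000000000000000000000000000 * (-S3 u - Ax.e3 * (1 + u) ^ 3) := by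
        simp only [lnl3, evalIL, List.map_cons, List.map_nil, List.sum_cons, List.sum_nil, S3, Ax]
        push_cast
        ring
      rw [e] at hx
      have := cmul_nonpos (by norm_num) hx
      simp only [Ax] at this ⊢
      linarith

/-- The quotient polynomial for `j = 4`. -/
noncomputable def S4 (u : ℝ) : ℝ :=
  (158545 / 16777216 : ℝ) * u ^ 0 + (12260277 / 16777216 : ℝ) * u ^ 1 + (30284227 / 16777216 : ℝ) * u ^ 2 + (-260617443 / 16777216 : ℝ) * u ^ 3 + (-604786525 / 16777216 : ℝ) * u ^ 4 + (295888547 / 4194304 : ℝ) * u ^ 5 + (2414802289 / 16777216 : ℝ) * u ^ 6 + (-774386355 / 16777216 : ℝ) * u ^ 7 + (-181163657 / 1048576 : ℝ) * u ^ 8 + (-1202193427 / 16777216 : ℝ) * u ^ 9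

/-- Certificate polynomial. -/
def lpu4 : List ITm := [⟨(-5766464671215498771772445252281613647937774658203125),0,0⟩,⟨40413328543786875002297165337949991226196289062500000,1,0⟩,⟨83145552437470716995449038222432136535644531250000000,2,0⟩,⟨(-633872743893857553632464259862899780273437500000000000),3,0⟩,⟨(-1018164808989592083232525932788848876953125000000000000),4,0⟩,⟨1395558397807328125340530717812500000000000000000000000,5,0⟩,⟨1997539477034754974583012073341512000000000000000000000,6,0⟩,⟨(-449392073753623976813383939513729929216000000000000000),7,0⟩,⟨(-1180083401769425775849045172070212994742574120960000000),8,0⟩,⟨(-343360168742156766306370867947193646265275837405200384),9,0⟩]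

/-- Certificate tree. -/
def tpu4 : OutT := (A (A (A (A (O l) (O l)) (A (A (O l) (O l)) (A (A (O l) (O l)) (O l)))) (A (A (O l) (O l)) (A (O l) (O l)))) (A (A (A (O l) (O l)) (A (O l) (O l))) (A (A (A (O l) (O l)) (A (A (O l) (O l)) (A (A (O l) (O l)) (A (O l) (O l))))) (A (A (A (A (A (O l) (O l)) (A (O l) (O l))) (A (O l) (O l))) (A (A (O l) (O l)) (O l))) (A (A (O l) (O l)) (O l))))))

theorem hpu4 (x : ℝ) (h0 : 0 ≤ x) (h1 : x ≤ 1) : evalIL lpu4 x 0 ≤ 0 :=
  uni_le 9 65536 lpu4 (by norm_num) (by norm_num) (by decide +kernel)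
    (chkOut_sound (uniPb 9 65536 lpu4) tpu4 0 32768 0 32768 (by decide +kernel)) x h0 h1

/-- Certificate polynomial. -/
def lpl4 : List ITm := [⟨(-7966718539205441818040753787499852478504180908203125),0,0⟩,⟨(-78950969780100521688837034162133932113647460937500000),1,0⟩,⟨(-123699236422364381269289879128336906433105468750000000),2,0⟩,⟨614905991366121643646154552698135375976562500000000000,3,0⟩,⟨1014838313717463604018031013011932373046875000000000000,4,0⟩,⟨(-1395558397807328125340530717812500000000000000000000000),5,0⟩,⟨(-1997539477034754974583012073341512000000000000000000000),6,0⟩,⟨449392073753623976813383939513729929216000000000000000,7,0⟩,⟨1180083401769425775849045172070212994742574120960000000,8,0⟩,⟨343360168742156766306370867947193646265275837405200384,9,0⟩]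

/-- Certificate tree. -/
def tpl4 : OutT := (A (A (A (O l) (O l)) (A (O l) (A (O l) (A (O l) (O l))))) (A (A (A (A (A (O l) (O l)) (A (O l) (A (O l) (O l)))) (A (A (A (O l) (O l)) (A (O l) (O l))) (A (O l) (O l)))) (A (A (A (O l) (O l)) (O l)) (A (O l) (O l)))) (A (A (O l) (O l)) (A (O l) (A (O l) (A (O l) (A (O l) (A (O l) (O l)))))))))

theorem hpl4 (x : ℝ) (h0 : 0 ≤ x) (h1 : x ≤ 1) : evalIL lpl4 x 0 ≤ 0 :=
  uni_le 9 65536 lpl4 (by norm_num) (by norm_num) (by decide +kernel)
    (chkOut_sound (uniPb 9 65536 lpl4) tpl4 0 32768 0 32768 (by decide +kernel)) x h0 h1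

/-- Certificate polynomial. -/
def lnu4 : List ITm := [⟨(-5766464671215498771772445252281613647937774658203125),0,0⟩,⟨(-20206664271893437501148582668974995613098144531250000),1,0⟩,⟨20786388109367679248862259555608034133911132812500000,2,0⟩,⟨79234092986732194204058032482862472534179687500000000,3,0⟩,⟨(-63635300561849505202032870799303054809570312500000000),4,0⟩,⟨(-43611199931479003916891584931640625000000000000000000),5,0⟩,⟨31211554328668046477859563645961125000000000000000000,6,0⟩,⟨3510875576200187318854562027451015072000000000000000,7,0⟩,⟨(-4609700788161819436910332703399269510713180160000000),8,0⟩,⟨670625329574524934192130601459362590361866869932032,9,0⟩]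

/-- Certificate tree. -/
def tnu4 : OutT := (A (A (O l) (O l)) (A (A (O l) (A (O l) (A (O l) (O l)))) (A (A (A (O l) (A (O l) (O l))) (A (A (A (O l) (O l)) (A (O l) (O l))) (A (A (O l) (O l)) (A (O l) (O l))))) (A (A (A (O l) (O l)) (O l)) (A (O l) (O l))))))

theorem hnu4 (x : ℝ) (h0 : 0 ≤ x) (h1 : x ≤ 1) : evalIL lnu4 x 0 ≤ 0 :=
  uni_le 9 65536 lnu4 (by norm_num) (by norm_num) (by decide +kernel)
    (chkOut_sound (uniPb 9 65536 lnu4) tnu4 0 32768 0 32768 (by decide +kernel)) x h0 h1

/-- Certificate polynomial. -/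
def lnl4 : List ITm := [⟨(-7966718539205441818040753787499852478504180908203125),0,0⟩,⟨39475484890050260844418517081066966056823730468750000,1,0⟩,⟨(-30924809105591095317322469782084226608276367187500000),2,0⟩,⟨(-76863248920765205455769319087266921997070312500000000),3,0⟩,⟨63427394607341475251126938313245773315429687500000000,4,0⟩,⟨43611199931479003916891584931640625000000000000000000,5,0⟩,⟨(-31211554328668046477859563645961125000000000000000000),6,0⟩,⟨(-3510875576200187318854562027451015072000000000000000),7,0⟩,⟨4609700788161819436910332703399269510713180160000000,8,0⟩,⟨(-670625329574524934192130601459362590361866869932032),9,0⟩]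

/-- Certificate tree. -/
def tnl4 : OutT := (A (A (A (O l) (O l)) (A (A (O l) (A (O l) (O l))) (A (A (O l) (O l)) (A (O l) (O l))))) (A (A (A (O l) (O l)) (A (O l) (O l))) (A (A (O l) (O l)) (A (O l) (A (O l) (A (O l) (A (O l) (A (O l) (O l)))))))))

theorem hnl4 (x : ℝ) (h0 : 0 ≤ x) (h1 : x ≤ 1) : evalIL lnl4 x 0 ≤ 0 :=
  uni_le 9 65536 lnl4 (by norm_num) (by norm_num) (by decide +kernel)
    (chkOut_sound (uniPb 9 65536 lnl4) tnl4 0 32768 0 32768 (by decide +kernel)) x h0 h1

theorem apx4 (u : ℝ) (h0 : -(27404 / 78125 : ℝ) ≤ u) (h1 : u ≤ 2 * (27404 / 78125 : ℝ)) :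
    |((1 + u)⁻¹) ^ 4 - evalZ Ax.p4 (3 * u) / Ax.D4| ≤ Ax.e4 * |u| ^ Ax.m4 := by
  have hu : 0 < 1 + u := by norm_num at h0 ⊢; linarith
  refine apx_of_S 4 2 _ (S4 u) _ u hu ?_ ?_ ?_
  · simp only [Ax, evalZ_cons, evalZ_nil, S4]
    push_cast
    ring
  · rcases le_total 0 u with hs | hs
    · have hx := hpu4 (u / (2 * (27404 / 78125 : ℝ))) (by positivity) (by rw [div_le_one (by norm_num)]; exact h1)
      have e : evalIL lpu4 (u / (2 * (27404 / 78125 : ℝ))) 0 = 116415321826934814453125000000000000000000000000000000 * (S4 u - Ax.e4 * (1 + u) ^ 4) := by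
        simp only [lpu4, evalIL, List.map_cons, List.map_nil, List.sum_cons, List.sum_nil, S4, Ax]
        push_cast
        ring
      rw [e] at hx
      have := cmul_nonpos (by norm_num) hx
      simp only [Ax] at this ⊢
      linarith
    · have hx := hnu4 (-u / (27404 / 78125 : ℝ)) (by apply div_nonneg <;> [linarith; norm_num]) (by rw [div_le_one (by norm_num)]; linarith)
      have e : evalIL lnu4 (-u / (27404 / 78125 : ℝ)) 0 = 116415321826934814453125000000000000000000000000000000 * (S4 u - Ax.e4 * (1 + u) ^ 4) := by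
        simp only [lnu4, evalIL, List.map_cons, List.map_nil, List.sum_cons, List.sum_nil, S4, Ax]
        push_cast
        ring
      rw [e] at hx
      have := cmul_nonpos (by norm_num) hx
      simp only [Ax] at this ⊢
      linarith
  · rcases le_total 0 u with hs | hs
    · have hx := hpl4 (u / (2 * (27404 / 78125 : ℝ))) (by positivity) (by rw [div_le_one (by norm_num)]; exact h1)
      have e : evalIL lpl4 (u / (2 * (27404 / 78125 : ℝ))) 0 = 116415321826934814453125000000000000000000000000000000 * (-S4 u - Ax.e4 * (1 + u) ^ 4) := by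
        simp only [lpl4, evalIL, List.map_cons, List.map_nil, List.sum_cons, List.sum_nil, S4, Ax]
        push_cast
        ring
      rw [e] at hx
      have := cmul_nonpos (by norm_num) hx
      simp only [Ax] at this ⊢
      linarith
    · have hx := hnl4 (-u / (27404 / 78125 : ℝ)) (by apply div_nonneg <;> [linarith; norm_num]) (by rw [div_le_one (by norm_num)]; linarith)
      have e : evalIL lnl4 (-u / (27404 / 78125 : ℝ)) 0 = 116415321826934814453125000000000000000000000000000000 * (-S4 u - Ax.e4 * (1 + u) ^ 4) := by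
        simp only [lnl4, evalIL, List.map_cons, List.map_nil, List.sum_cons, List.sum_nil, S4, Ax]
        push_cast
        ring
      rw [e] at hx
      have := cmul_nonpos (by norm_num) hx
      simp only [Ax] at this ⊢
      linarith

/-- The quotient polynomial for `j = 5`. -/
noncomputable def S5 (u : ℝ) : ℝ :=
  (635283 / 16777216 : ℝ) * u ^ 0 + (38416285 / 16777216 : ℝ) * u ^ 1 + (29747711 / 4194304 : ℝ) * u ^ 2 + (-369266851 / 8388608 : ℝ) * u ^ 3 + (-1268838863 / 8388608 : ℝ) * u ^ 4 + (259696035 / 2097152 : ℝ) * u ^ 5 + (667330575 / 1048576 : ℝ) * u ^ 6 + (2116169927 / 8388608 : ℝ) * u ^ 7 + (-11119716053 / 16777216 : ℝ) * u ^ 8 + (-11857607101 / 16777216 : ℝ) * u ^ 9 + (-851028787 / 4194304 : ℝ) * u ^ 10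

/-- Certificate polynomial. -/
def lpu5 : List ITm := [⟨(-1301273414990402645108336088242140249349176883697509765625),0,0⟩,⟨8837473240348205083538601911641308106482028961181640625000,1,0⟩,⟨23647611460178695175216034840559586882591247558593750000000,2,0⟩,⟨(-143915214265917008846718090353533625602722167968750000000000),3,0⟩,⟨(-335214146454330522394959692843258380889892578125000000000000),4,0⟩,⟨191104166682369799557011414080524444580078125000000000000000,5,0⟩,⟨690025004255535934360603792755750000000000000000000000000000,6,0⟩,⟨191883786789957923159087281419053065856000000000000000000000,7,0⟩,⟨(-353675819301120477728455542849025624705944780800000000000000),8,0⟩,⟨(-264583435293507129394017740480756723166100849311088640000000),9,0⟩,⟨(-53287305595966908572477056568717302784860745008841834364928),10,0⟩]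

/-- Certificate tree. -/
def tpu5 : OutT := (A (A (A (A (O l) (O l)) (A (A (O l) (A (O l) (O l))) (A (O l) (O l)))) (A (A (O l) (O l)) (A (O l) (O l)))) (A (A (O l) (A (O l) (O l))) (A (A (A (O l) (O l)) (A (A (O l) (O l)) (A (A (O l) (O l)) (A (O l) (O l))))) (A (A (A (A (O l) (O l)) (A (O l) (O l))) (A (A (O l) (O l)) (O l))) (A (A (O l) (O l)) (O l))))))

theorem hpu5 (x : ℝ) (h0 : 0 ≤ x) (h1 : x ≤ 1) : evalIL lpu5 x 0 ≤ 0 :=
  uni_le 10 65536 lpu5 (by norm_num) (by norm_num) (by decide +kernel)
    (chkOut_sound (uniPb 10 65536 lpu5) tpu5 0 32768 0 32768 (by decide +kernel)) x h0 h1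

/-- Certificate polynomial. -/
def lpl5 : List ITm := [⟨(-1990048623733511358457892725937199429608881473541259765625),0,0⟩,⟨(-20382483051444542920815905517883948050439357757568359375000),1,0⟩,⟨(-39846239241978838130364692915463820099830627441406250000000),2,0⟩,⟨132551190055166260237620008410885930061340332031250000000000,3,0⟩,⟨331227974045096429404448027722537517547607421875000000000000,4,0⟩,⟨(-191663460474127373108688760235881805419921875000000000000000),5,0⟩,⟨(-690025004255535934360603792755750000000000000000000000000000),6,0⟩,⟨(-191883786789957923159087281419053065856000000000000000000000),7,0⟩,⟨353675819301120477728455542849025624705944780800000000000000,8,0⟩,⟨264583435293507129394017740480756723166100849311088640000000,9,0⟩,⟨53287305595966908572477056568717302784860745008841834364928,10,0⟩]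

/-- Certificate tree. -/
def tpl5 : OutT := (A (A (A (O l) (O l)) (A (O l) (A (O l) (A (O l) (O l))))) (A (A (A (A (A (O l) (O l)) (A (O l) (A (O l) (O l)))) (A (A (A (O l) (O l)) (A (O l) (O l))) (A (O l) (O l)))) (A (A (O l) (O l)) (A (O l) (O l)))) (A (A (O l) (O l)) (A (O l) (A (O l) (A (O l) (A (O l) (A (O l) (O l)))))))))

theorem hpl5 (x : ℝ) (h0 : 0 ≤ x) (h1 : x ≤ 1) : evalIL lpl5 x 0 ≤ 0 :=
  uni_le 10 65536 lpl5 (by norm_num) (by norm_num) (by decide +kernel)
    (chkOut_sound (uniPb 10 65536 lpl5) tpl5 0 32768 0 32768 (by decide +kernel)) x h0 h1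

/-- Certificate polynomial. -/
def lnu5 : List ITm := [⟨(-1301273414990402645108336088242140249349176883697509765625),0,0⟩,⟨(-4418736620174102541769300955820654053241014480590820312500),1,0⟩,⟨5911902865044673793804008710139896720647811889648437500000,2,0⟩,⟨17989401783239626105839761294191703200340270996093750000000,3,0⟩,⟨(-20950884153395657649684980802703648805618286132812500000000),4,0⟩,⟨(-5972005208824056236156606690016388893127441406250000000000),5,0⟩,⟨10781640691492748974384434261808593750000000000000000000000,6,0⟩,⟨(-1499092084296546274680369386086352077000000000000000000000),7,0⟩,⟨(-1381546169145001866126779464254006346507596800000000000000),8,0⟩,⟨516764522057631112097690899376477974933790721310720000000,9,0⟩,⟨(-52038384371061434152809625555387991000840571297697103872),10,0⟩]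

/-- Certificate tree. -/
def tnu5 : OutT := (A (A (O l) (O l)) (A (A (O l) (A (O l) (A (O l) (O l)))) (A (A (A (O l) (A (O l) (O l))) (A (A (A (O l) (O l)) (A (O l) (O l))) (A (A (O l) (O l)) (A (O l) (O l))))) (A (A (A (A (O l) (O l)) (O l)) (A (O l) (O l))) (A (O l) (O l))))))

theorem hnu5 (x : ℝ) (h0 : 0 ≤ x) (h1 : x ≤ 1) : evalIL lnu5 x 0 ≤ 0 :=
  uni_le 10 65536 lnu5 (by norm_num) (by norm_num) (by decide +kernel)
    (chkOut_sound (uniPb 10 65536 lnu5) tnu5 0 32768 0 32768 (by decide +kernel)) x h0 h1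

/-- Certificate polynomial. -/
def lnl5 : List ITm := [⟨(-1990048623733511358457892725937199429608881473541259765625),0,0⟩,⟨10191241525722271460407952758941974025219678878784179687500,1,0⟩,⟨(-9961559810494709532591173228865955024957656860351562500000),2,0⟩,⟨(-16568898756895782529702501051360741257667541503906250000000),3,0⟩,⟨20701748377818526837778001732658594846725463867187500000000,4,0⟩,⟨5989483139816480409646523757371306419372558593750000000000,5,0⟩,⟨(-10781640691492748974384434261808593750000000000000000000000),6,0⟩,⟨1499092084296546274680369386086352077000000000000000000000,7,0⟩,⟨1381546169145001866126779464254006346507596800000000000000,8,0⟩,⟨(-516764522057631112097690899376477974933790721310720000000),9,0⟩,⟨52038384371061434152809625555387991000840571297697103872,10,0⟩]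

/-- Certificate tree. -/
def tnl5 : OutT := (A (A (A (O l) (O l)) (A (A (O l) (A (O l) (O l))) (A (A (O l) (O l)) (A (O l) (O l))))) (A (A (A (O l) (O l)) (A (O l) (O l))) (A (A (O l) (O l)) (A (A (O l) (O l)) (A (O l) (A (O l) (A (O l) (A (O l) (O l)))))))))

theorem hnl5 (x : ℝ) (h0 : 0 ≤ x) (h1 : x ≤ 1) : evalIL lnl5 x 0 ≤ 0 :=
  uni_le 10 65536 lnl5 (by norm_num) (by norm_num) (by decide +kernel)
    (chkOut_sound (uniPb 10 65536 lnl5) tnl5 0 32768 0 32768 (by decide +kernel)) x h0 h1

theorem apx5 (u : ℝ) (h0 : -(27404 / 78125 : ℝ) ≤ u) (h1 : u ≤ 2 * (27404 / 78125 : ℝ)) :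
    |((1 + u)⁻¹) ^ 5 - evalZ Ax.p5 (3 * u) / Ax.D5| ≤ Ax.e5 * |u| ^ Ax.m5 := by
  have hu : 0 < 1 + u := by norm_num at h0 ⊢; linarith
  refine apx_of_S 5 2 _ (S5 u) _ u hu ?_ ?_ ?_
  · simp only [Ax, evalZ_cons, evalZ_nil, S5]
    push_cast
    ring
  · rcases le_total 0 u with hs | hs
    · have hx := hpu5 (u / (2 * (27404 / 78125 : ℝ))) (by positivity) (by rw [div_le_one (by norm_num)]; exact h1)
      have e : evalIL lpu5 (u / (2 * (27404 / 78125 : ℝ))) 0 = 9094947017729282379150390625000000000000000000000000000000 * (S5 u - Ax.e5 * (1 + u) ^ 5) := by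
        simp only [lpu5, evalIL, List.map_cons, List.map_nil, List.sum_cons, List.sum_nil, S5, Ax]
        push_cast
        ring
      rw [e] at hx
      have := cmul_nonpos (by norm_num) hx
      simp only [Ax] at this ⊢
      linarith
    · have hx := hnu5 (-u / (27404 / 78125 : ℝ)) (by apply div_nonneg <;> [linarith; norm_num]) (by rw [div_le_one (by norm_num)]; linarith)
      have e : evalIL lnu5 (-u / (27404 / 78125 : ℝ)) 0 = 9094947017729282379150390625000000000000000000000000000000 * (S5 u - Ax.e5 * (1 + u) ^ 5) := by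
        simp only [lnu5, evalIL, List.map_cons, List.map_nil, List.sum_cons, List.sum_nil, S5, Ax]
        push_cast
        ring
      rw [e] at hx
      have := cmul_nonpos (by norm_num) hx
      simp only [Ax] at this ⊢
      linarith
  · rcases le_total 0 u with hs | hs
    · have hx := hpl5 (u / (2 * (27404 / 78125 : ℝ))) (by positivity) (by rw [div_le_one (by norm_num)]; exact h1)
      have e : evalIL lpl5 (u / (2 * (27404 / 78125 : ℝ))) 0 = 9094947017729282379150390625000000000000000000000000000000 * (-S5 u - Ax.e5 * (1 + u) ^ 5) := by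
        simp only [lpl5, evalIL, List.map_cons, List.map_nil, List.sum_cons, List.sum_nil, S5, Ax]
        push_cast
        ring
      rw [e] at hx
      have := cmul_nonpos (by norm_num) hx
      simp only [Ax] at this ⊢
      linarith
    · have hx := hnl5 (-u / (27404 / 78125 : ℝ)) (by apply div_nonneg <;> [linarith; norm_num]) (by rw [div_le_one (by norm_num)]; linarith)
      have e : evalIL lnl5 (-u / (27404 / 78125 : ℝ)) 0 = 9094947017729282379150390625000000000000000000000000000000 * (-S5 u - Ax.e5 * (1 + u) ^ 5) := by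
        simp only [lnl5, evalIL, List.map_cons, List.map_nil, List.sum_cons, List.sum_nil, S5, Ax]
        push_cast
        ring
      rw [e] at hx
      have := cmul_nonpos (by norm_num) hx
      simp only [Ax] at this ⊢
      linarith

theorem hAx : Ax.OK (-(27404 / 78125 : ℝ)) (2 * (27404 / 78125 : ℝ)) where
  e10 := by simp only [Ax]; norm_num
  e20 := by simp only [Ax]; norm_num
  e30 := by simp only [Ax]; norm_num
  e40 := by simp only [Ax]; norm_num
  e50 := by simp only [Ax]; norm_num
  h1 := fun u a b => by simpa using apx1 u a b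
  h2 := apx2
  h3 := apx3
  h4 := apx4
  h5 := apx5

end Vale.Agent.P154.D8.K1
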