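import Vale.Agent.P154.D8.K1.Data
import Vale.Agent.P154.Check2

namespace Vale.Agent.P154.D8.K1

open Cert

/-- Chart (0, 0). -/
def P00 : Pb := chartPb false false Nd w G []

/-- Chart (0, 1). -/
def P01 : Pb := chartPb false true Nd w G []

/-- Chart (1, 0). -/
def P10 : Pb := chartPb true false Nd w G []

/-- Chart (1, 1). -/
def P11 : Pb := chartPb true true Nd w G []

/-- The offset. -/
def KK : ℕ := 2494800386918399764570465891296048207584314075544321926878184053046514864836205082231197456865794626361678058555240619054965547485491992075923964747856039275400007091188857095646922151805453733978316695930679904991663513068901087986111069085560055196883901133594695052052948119037930012409856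

end Vale.Agent.P154.D8.K1
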